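import Vale.Agent.P235.R2.AP.Defs

/-!
# P235, all planar graphs: potentials of the closed curves and their norm

`RowPot` and `RowNorm` from `RowClosed`.
-/

namespace Vale.Agent.P235.AP

open scoped Classical

variable {V : Type} {G : SimpleGraph V}

lemma finite_dart [Finite V] (G : SimpleGraph V) : Finite G.Dart :=
  Finite.of_injective (fun d : G.Dart => d.toProd) SimpleGraph.Dart.toProd_injective

lemma finite_up [Finite V] (G : SimpleGraph V) (u : V → ℤ) : Finite (Up G u) := by
  have := finite_dart G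
  exact (inferInstance : Finite {d : G.Dart // u d.snd = u d.fst + 1})

lemma finite_curve [Finite V] {u : V → ℤ} (π : Equiv.Perm (Up G u)) : Finite (Curve π) := by
  have := finite_up G u
  exact (inferInstance : Finite (Quotient (Equiv.Perm.SameCycle.setoid π)))

lemma cv_apply {u : V → ℤ} (π : Equiv.Perm (Up G u)) (e : Up G u) : cv π (π e) = cv π e := by
  refine Quotient.sound ?_
  show Equiv.Perm.SameCycle π (π e) e
  exact (Equiv.Perm.sameCycle_apply_left).2 (Equiv.Perm.SameCycle.refl _ _)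

/-- sums over the darts of a set of up-darts -/
lemma sum_up [Fintype G.Dart] {u : V → ℤ} [Fintype (Up G u)] (A : Set (Up G u))
    (h : G.Dart → ℝ) :
    ∑ d : G.Dart, (if ∃ e ∈ A, e.1 = d then h d else 0) =
      ∑ e : Up G u, if e ∈ A then h e.1 else 0 := by
  refine (Fintype.sum_of_injective (fun e : Up G u => e.1) (fun a b h => Subtype.ext h) _ _
    (fun d hd => ?_) fun e => ?_).symm
  · rw [if_neg]
    rintro ⟨e, -, rfl⟩
    exact hd ⟨e, rfl⟩
  · by_cases he : e ∈ A
    · rw [if_pos he, if_pos ⟨e, he, rfl⟩]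
    · rw [if_neg he, if_neg]
      rintro ⟨e', he', h'⟩
      exact he ((Subtype.ext h' : e' = e) ▸ he')

/-- sums over the reversed darts of a set of up-darts -/
lemma sum_dn [Fintype G.Dart] {u : V → ℤ} [Fintype (Up G u)] (A : Set (Up G u))
    (h : G.Dart → ℝ) :
    ∑ d : G.Dart, (if ∃ e ∈ A, e.1 = d.symm then h d else 0) =
      ∑ e : Up G u, if e ∈ A then h e.1.symm else 0 := by
  refine (Fintype.sum_of_injective (fun e : Up G u => e.1.symm) (fun a b h => Subtype.ext ?_) _ _
    (fun d hd => ?_) fun e => ?_).symm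
  · have h1 : a.1.symm.symm = b.1.symm.symm := congrArg SimpleGraph.Dart.symm h
    rwa [SimpleGraph.Dart.symm_symm, SimpleGraph.Dart.symm_symm] at h1
  · rw [if_neg]
    rintro ⟨e, -, he⟩
    exact hd ⟨e, by show e.1.symm = d; rw [he, SimpleGraph.Dart.symm_symm]⟩
  · by_cases he : e ∈ A
    · rw [if_pos he, if_pos ⟨e, he, (SimpleGraph.Dart.symm_symm _).symm⟩]
    · rw [if_neg he, if_neg]
      rintro ⟨e', he', h'⟩
      rw [SimpleGraph.Dart.symm_symm] at h'
      exact he ((Subtype.ext h' : e' = e) ▸ he')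

/-- the crossing function of an invariant set of up-darts is closed -/
theorem closed_zf [Finite V] {σ : Equiv.Perm G.Dart} {u : V → ℤ} {π : Equiv.Perm (Up G u)}
    (hπ : Conf σ u π) {A : Set (Up G u)} (hA : ∀ e, π e ∈ A ↔ e ∈ A) : Closed σ (zf A) := by
  have i1 := finite_dart G
  have i2 := finite_up G u
  have := Fintype.ofFinite G.Dart
  have := Fintype.ofFinite (Up G u)
  refine ⟨fun d => ?_, fun f => ?_⟩
  · unfold zf
    rw [SimpleGraph.Dart.symm_symm]
    ring
  · have h1 : ∀ d : G.Dart, (∑ᶠ (_ : fc σ d = f), zf A d) =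
        (if ∃ e ∈ A, e.1 = d then (if fc σ d = f then (1 : ℝ) else 0) else 0) -
        (if ∃ e ∈ A, e.1 = d.symm then (if fc σ d = f then (1 : ℝ) else 0) else 0) := by
      intro d
      rw [finsum_eq_if]
      unfold zf
      split_ifs <;> ring
    rw [finsum_eq_sum_of_fintype]
    simp only [h1]
    rw [Finset.sum_sub_distrib, sum_up A (fun d => if fc σ d = f then (1 : ℝ) else 0),
      sum_dn A (fun d => if fc σ d = f then (1 : ℝ) else 0), sub_eq_zero,
      ← Equiv.sum_comp π (fun e => if e ∈ A then (if fc σ e.1.symm = f then (1 : ℝ) else 0) else 0)]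
    refine Finset.sum_congr rfl fun e _ => ?_
    rw [hπ e]
    by_cases he : e ∈ A
    · rw [if_pos he, if_pos ((hA e).2 he)]
    · rw [if_neg he, if_neg fun h => he ((hA e).1 h)]

/-- **AP2a** from AP1 -/
theorem rowPot_of (hC : RowClosed) : RowPot := by
  intro V _ G σ u π hG hP _ hπ
  have hex : ∃ W, IsPot π W := by
    have h1 : ∀ γ : Curve π, Exact (zf {e | cv π e = γ}) := fun γ =>
      hC V G σ _ hG hP (closed_zf hπ fun e => by
        show cv π (π e) = γ ↔ cv π e = γ
        rw [cv_apply])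
    choose W hW using h1
    exact ⟨W, fun γ d => (hW γ d).symm⟩
  unfold pot
  rw [dif_pos hex]
  exact hex.choose_spec

section norm
variable {u : V → ℤ} {π : Equiv.Perm (Up G u)}

lemma zf_up (e : Up G u) (γ : Curve π) :
    zf {e | cv π e = γ} e.1 = if cv π e = γ then 1 else 0 := by
  have h1 : ¬ ∃ e' ∈ {e : Up G u | cv π e = γ}, e'.1 = e.1.symm := by
    rintro ⟨e', -, h'⟩
    have h2 := e'.2
    rw [h'] at h2
    have h3 := e.2
    simp only [SimpleGraph.Dart.symm] at h2
    have h4 : u e.1.fst = u e.1.snd + 1 := h2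
    omega
  unfold zf
  rw [if_neg h1, sub_zero]
  by_cases he : cv π e = γ
  · rw [if_pos ⟨e, he, rfl⟩, if_pos he]
  · rw [if_neg he, if_neg]
    rintro ⟨e', he', h'⟩
    exact he ((Subtype.ext h' : e' = e) ▸ he')

lemma pot_up (hW : IsPot π (pot π)) (e : Up G u) (γ : Curve π) :
    pot π γ e.1.snd - pot π γ e.1.fst = if cv π e = γ then 1 else 0 := by
  rw [hW γ e.1, zf_up]

lemma NN_eq [Finite V] (x y : V) : ∀ [Fintype (Curve π)],
    NN π x y = ∑ γ : Curve π, |pot π γ x - pot π γ y| := by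
  intro _
  unfold NN
  rw [finsum_eq_sum_of_fintype]

lemma NN_comm (x y : V) : NN π x y = NN π y x := by
  unfold NN
  exact finsum_congr fun γ => abs_sub_comm _ _

lemma NN_self (x : V) : NN π x x = 0 := by
  unfold NN
  simp

lemma NN_tri [Finite V] (x y z : V) : NN π x z ≤ NN π x y + NN π y z := by
  have := finite_curve π
  have := Fintype.ofFinite (Curve π)
  rw [NN_eq, NN_eq, NN_eq, ← Finset.sum_add_distrib]
  exact Finset.sum_le_sum fun γ _ => abs_sub_le _ _ _

lemma NN_up [Finite V] (hW : IsPot π (pot π)) (e : Up G u) : NN π e.1.fst e.1.snd = 1 := by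
  have := finite_curve π
  have := Fintype.ofFinite (Curve π)
  rw [NN_comm, NN_eq]
  simp only [pot_up hW e]
  rw [Finset.sum_eq_single (cv π e)]
  · rw [if_pos rfl, abs_one]
  · intro γ _ h
    rw [if_neg h.symm, abs_zero]
  · intro h
    exact absurd (Finset.mem_univ _) h

lemma adj_cases (hu : UnitH G u) {x y : V} (h : G.Adj x y) :
    (∃ e : Up G u, e.1.fst = x ∧ e.1.snd = y) ∨ ∃ e : Up G u, e.1.fst = y ∧ e.1.snd = x := by
  rcases hu x y h with h1 | h1
  · exact Or.inl ⟨⟨⟨(x, y), h⟩, h1⟩, rfl, rfl⟩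
  · exact Or.inr ⟨⟨⟨(y, x), h.symm⟩, h1⟩, rfl, rfl⟩

lemma NN_adj [Finite V] (hu : UnitH G u) (hW : IsPot π (pot π)) {x y : V} (h : G.Adj x y) :
    NN π x y = 1 := by
  rcases adj_cases hu h with ⟨e, rfl, rfl⟩ | ⟨e, rfl, rfl⟩
  · exact NN_up hW e
  · rw [NN_comm]
    exact NN_up hW e

lemma NN_walk [Finite V] (hu : UnitH G u) (hW : IsPot π (pot π)) {x y : V} (w : G.Walk x y) :
    NN π x y ≤ w.length := by
  induction w with
  | nil => rw [NN_self, SimpleGraph.Walk.length_nil, Nat.cast_zero]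
  | cons h p ih =>
    rw [SimpleGraph.Walk.length_cons, Nat.cast_add, Nat.cast_one]
    have h1 := NN_tri (π := π) _ _ _ |>.trans (add_le_add (NN_adj hu hW h).le ih)
    linarith

/-- the sum of the potentials is the height -/
lemma sum_pot [Finite V] (hu : UnitH G u) (hW : IsPot π (pot π)) [Fintype (Curve π)] {x y : V}
    (w : G.Walk x y) : ∑ γ : Curve π, (pot π γ y - pot π γ x) = (u y - u x : ℝ) := by
  have hup : ∀ e : Up G u, ∑ γ : Curve π, (pot π γ e.1.snd - pot π γ e.1.fst) = 1 := by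
    intro e
    simp only [pot_up hW e]
    rw [Finset.sum_ite_eq Finset.univ (cv π e) (fun _ => (1 : ℝ)), if_pos (Finset.mem_univ _)]
  induction w with
  | nil => simp
  | @cons a b c h p ih =>
    have h1 : ∑ γ : Curve π, (pot π γ c - pot π γ a) =
        ∑ γ : Curve π, (pot π γ c - pot π γ b) + ∑ γ : Curve π, (pot π γ b - pot π γ a) := by
      rw [← Finset.sum_add_distrib]
      exact Finset.sum_congr rfl fun γ _ => by ring
    rw [h1, ih]
    rcases adj_cases hu h with ⟨e, rfl, rfl⟩ | ⟨e, rfl, rfl⟩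
    · have h2 : (u e.1.snd : ℝ) = u e.1.fst + 1 := by exact_mod_cast e.2
      rw [hup e, h2]
      ring
    · have h2 : (u e.1.snd : ℝ) = u e.1.fst + 1 := by exact_mod_cast e.2
      have h3 : ∑ γ : Curve π, (pot π γ e.1.fst - pot π γ e.1.snd) = -1 := by
        rw [← hup e, ← Finset.sum_neg_distrib]
        exact Finset.sum_congr rfl fun γ _ => by ring
      rw [h3, h2]
      ring

end norm

/-- **AP2b** from AP2a -/
theorem rowNorm_of (hP : RowPot) : RowNorm := by
  intro V _ G σ u π hG hPl hu hπ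
  have hW := hP V G σ u π hG hPl hu hπ
  refine ⟨fun x y h => NN_adj hu hW h, fun x y => ?_, fun x y => ?_, NN_tri⟩
  · obtain ⟨w, hw⟩ := (hG.preconnected x y).exists_walk_length_eq_dist
    rw [← hw]
    exact NN_walk hu hW w
  · have := finite_curve π
    have := Fintype.ofFinite (Curve π)
    obtain ⟨w⟩ := hG.preconnected y x
    rw [← sum_pot hu hW w, NN_eq]
    exact Finset.abs_sum_le_sum_abs _ _

end Vale.Agent.P235.AP
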